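import Vale.Agent.H36.AC.PlaneWaves

/-!
# P134 (De Giorgi's conjecture for Allen-Cahn): sums of plane waves

Every `C^2` solution of `Δ u = u^3 - u` on `ℝ^n` (any `n`) of the form
`u (x) = ∑ k, f k (v k · x)` with linearly independent `v 1, ..., v m` and arbitrary functions
`f k` is one-dimensional: `u (x) = h (e · x)` with `e = v k / |v k|` for some `k`.
In particular every solution that is additively separable in the coordinates,
`u (x) = ∑ i, g i (x i)`, is a function of a single coordinate.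
No bound on `u` and no monotonicity is assumed.
-/

namespace Vale.Agent.Results.P134.A_PlaneWaveSums

open Vale.Agent.H36.AC

theorem result (n : ℕ) (u : EuclideanSpace ℝ (Fin n) → ℝ) (hu : ContDiff ℝ 2 u)
    (heq : ∀ x, Laplacian.laplacian u x = u x ^ 3 - u x) :
    (∀ (m : ℕ) (v : Fin m → EuclideanSpace ℝ (Fin n)) (f : Fin m → ℝ → ℝ),
      0 < m → LinearIndependent ℝ v → (∀ x, u x = ∑ k, f k (inner ℝ (v k) x)) →
      ∃ (k : Fin m) (e : EuclideanSpace ℝ (Fin n)) (h : ℝ → ℝ),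
        ‖e‖ = 1 ∧ v k = ‖v k‖ • e ∧ ∀ x, u x = h (inner ℝ e x)) ∧
    (∀ g : Fin n → ℝ → ℝ, 0 < n → (∀ x, u x = ∑ i, g i (x i)) →
      ∃ (i : Fin n) (h : ℝ → ℝ), ∀ x, u x = h (x i)) := by
  have main : ∀ (m : ℕ) (v : Fin m → EuclideanSpace ℝ (Fin n)) (f : Fin m → ℝ → ℝ),
      0 < m → LinearIndependent ℝ v → (∀ x, u x = ∑ k, f k (inner ℝ (v k) x)) →
      ∃ (k : Fin m) (h : ℝ → ℝ), ∀ x, u x = h (inner ℝ (v k) x) := by
    intro m v f hm hv hsep
    exact plane_wave_sum u hu heq m hm v hv f hsep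
  constructor
  · intro m v f hm hv hsep
    obtain ⟨k, h0, hk⟩ := main m v f hm hv hsep
    have hne : v k ≠ 0 := hv.ne_zero k
    have hnorm : ‖v k‖ ≠ 0 := norm_ne_zero_iff.mpr hne
    refine ⟨k, (‖v k‖)⁻¹ • v k, fun τ => h0 (‖v k‖ * τ), ?_, ?_, ?_⟩
    · rw [norm_smul, norm_inv, norm_norm, inv_mul_cancel₀ hnorm]
    · rw [smul_smul, mul_inv_cancel₀ hnorm, one_smul]
    · intro x
      rw [hk x, real_inner_smul_left]
      show h0 (inner ℝ (v k) x) = h0 (‖v k‖ * (‖v k‖⁻¹ * inner ℝ (v k) x))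
      rw [← mul_assoc, mul_inv_cancel₀ hnorm, one_mul]
  · intro g hn hsep
    have hv : LinearIndependent ℝ (fun i : Fin n => EuclideanSpace.single i (1 : ℝ)) :=
      (EuclideanSpace.orthonormal_single (𝕜 := ℝ) (ι := Fin n)).linearIndependent
    have hin : ∀ (i : Fin n) (x : EuclideanSpace ℝ (Fin n)),
        inner ℝ (EuclideanSpace.single i (1 : ℝ)) x = x i := by
      intro i x
      simp [EuclideanSpace.inner_single_left]
    obtain ⟨i, h0, hi⟩ := main n (fun i => EuclideanSpace.single i (1 : ℝ)) g hn hv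
      (by intro x; rw [hsep x]; apply Finset.sum_congr rfl; intro i _; rw [hin])
    exact ⟨i, h0, fun x => by rw [hi x, hin]⟩

end Vale.Agent.Results.P134.A_PlaneWaveSums
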