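import Vale.Agent.H36.AC.PlaneWaves
import Vale.Agent.Results.P134.A_PlaneWaveSums

/-!
# P134 (De Giorgi's conjecture for Allen-Cahn): sums of plane waves, with the monotone direction

For every `C^2` solution of `Δ u = u^3 - u` on `ℝ^n` (any `n`):

1. if `u (x) = ∑ k, f k (v k · x)` with linearly independent `v 1, ..., v m` and arbitrary
   functions `f k`, then `u (x) = h (e · x)` with `e = v k / |v k|` for some `k`;
2. if `u (x) = ∑ i, g i (x i)` (additively separable in the coordinates), then `u` is a function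
   of a single coordinate;
3. if `u` is additively separable and the derivative of `u` in the coordinate direction `j` is
   nonzero at some point, then `u` is a function of the coordinate `x j` alone.

Parts 1 and 2 are the statement of the hand-in `A_PlaneWaveSums`; part 3 follows from part 2.
No bound on `u` is assumed.
-/

namespace Vale.Agent.Results.P134.B_PlaneWaveSumsMonotone

theorem result (n : ℕ) (u : EuclideanSpace ℝ (Fin n) → ℝ) (hu : ContDiff ℝ 2 u)
    (heq : ∀ x, Laplacian.laplacian u x = u x ^ 3 - u x) :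
    (∀ (m : ℕ) (v : Fin m → EuclideanSpace ℝ (Fin n)) (f : Fin m → ℝ → ℝ),
      0 < m → LinearIndependent ℝ v → (∀ x, u x = ∑ k, f k (inner ℝ (v k) x)) →
      ∃ (k : Fin m) (e : EuclideanSpace ℝ (Fin n)) (h : ℝ → ℝ),
        ‖e‖ = 1 ∧ v k = ‖v k‖ • e ∧ ∀ x, u x = h (inner ℝ e x)) ∧
    (∀ g : Fin n → ℝ → ℝ, 0 < n → (∀ x, u x = ∑ i, g i (x i)) →
      ∃ (i : Fin n) (h : ℝ → ℝ), ∀ x, u x = h (x i)) ∧
    (∀ (j : Fin n) (g : Fin n → ℝ → ℝ), (∀ x, u x = ∑ i, g i (x i)) →
      (∃ x, fderiv ℝ u x (EuclideanSpace.single j (1 : ℝ)) ≠ 0) →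
      ∃ h : ℝ → ℝ, ∀ x, u x = h (x j)) := by
  have h12 := Vale.Agent.Results.P134.A_PlaneWaveSums.result n u hu heq
  refine ⟨h12.1, h12.2, ?_⟩
  intro j g hsep hder
  obtain ⟨i, h, hi⟩ := h12.2 g j.pos hsep
  obtain ⟨x, hx⟩ := hder
  by_cases hij : i = j
  · subst hij
    exact ⟨h, hi⟩
  · exfalso
    apply hx
    have hdiff : DifferentiableAt ℝ u x :=
      (hu.differentiable (by norm_num)).differentiableAt
    have hline : HasLineDerivAt ℝ u (fderiv ℝ u x (EuclideanSpace.single j (1 : ℝ))) x
        (EuclideanSpace.single j (1 : ℝ)) :=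
      hdiff.hasFDerivAt.hasLineDerivAt _
    have hconst : (fun t : ℝ => u (x + t • EuclideanSpace.single j (1 : ℝ))) = fun _ => u x := by
      funext t
      rw [hi, hi]
      congr 1
      simp [hij]
    have hline' : HasDerivAt (fun t : ℝ => u (x + t • EuclideanSpace.single j (1 : ℝ)))
        (fderiv ℝ u x (EuclideanSpace.single j (1 : ℝ))) 0 := hline
    rw [hconst] at hline'
    exact hline'.unique (hasDerivAt_const (0 : ℝ) (u x))

end Vale.Agent.Results.P134.B_PlaneWaveSumsMonotone
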